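import Vale.Agent.P137.W11

/-!
# P137 (Hajlasz-Onninen): the uncentered maximal operator over Euclidean balls, all `d ≥ 2`

For every `d ≥ 2` there is a constant `C` such that for every `f ∈ W^{1,1}(ℝ^d)` the uncentered
Hardy-Littlewood maximal function `uM f` is finite almost everywhere, belongs to
`W^{1,1}_loc(ℝ^d)`, has an integrable weak gradient and `∫ ‖∇ (uM f)‖ ≤ C ∫ ‖∇ f‖`.
-/

open MeasureTheory Metric Set Filter Topology
open scoped RealInnerProductSpace ENNReal

namespace Vale.Agent.Results.P137.UncenteredSobolev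

open Vale.Agent.P137

/-- the endpoint Sobolev bound for the uncentered maximal operator in every dimension `d ≥ 2` -/
theorem result (d : ℕ) (hd : 2 ≤ d) : ∃ C : ℝ, 0 ≤ C ∧
    ∀ (f : EuclideanSpace ℝ (Fin d) → ℝ) (g : EuclideanSpace ℝ (Fin d) → EuclideanSpace ℝ (Fin d)),
      Integrable f → Integrable g → IsWeakGradient f g →
      (∀ᵐ x, uM f x ≠ ⊤) ∧ LocallyIntegrable (fun x => (uM f x).toReal) ∧
      ∃ G : EuclideanSpace ℝ (Fin d) → EuclideanSpace ℝ (Fin d), Integrable G ∧
        IsWeakGradient (fun x => (uM f x).toReal) G ∧ ∫ x, ‖G x‖ ≤ C * ∫ x, ‖g x‖ :=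
  W11 d hd

end Vale.Agent.Results.P137.UncenteredSobolev
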