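import Vale.Agent.P137.W11
import Vale.Agent.P137.BVFinal

/-!
# P137 (Hajlasz-Onninen): the uncentered maximal operator over Euclidean balls, all `d ≥ 2`

Sobolev functions and functions of bounded variation. For every `d ≥ 2` there is a constant `C`
such that

* for every `f ∈ W^{1,1}(ℝ^d)` the uncentered Hardy-Littlewood maximal function `uM f` is finite
  almost everywhere, belongs to `W^{1,1}_loc(ℝ^d)`, has an integrable weak gradient and
  `∫ ‖∇ (uM f)‖ ≤ C ∫ ‖∇ f‖`;
* for every integrable `f` of bounded variation `uM f` is finite almost everywhere, locally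
  integrable, and `var (uM f) ≤ C var f`.
-/

open MeasureTheory Metric Set Filter Topology
open scoped RealInnerProductSpace ENNReal

namespace Vale.Agent.Results.P137.UncenteredSobolevBV

open Vale.Agent.P137

/-- the endpoint Sobolev bound and the variation bound for the uncentered maximal operator in
every dimension `d ≥ 2` -/
theorem result (d : ℕ) (hd : 2 ≤ d) : ∃ C : ℝ, 0 ≤ C ∧
    (∀ (f : EuclideanSpace ℝ (Fin d) → ℝ)
        (g : EuclideanSpace ℝ (Fin d) → EuclideanSpace ℝ (Fin d)),
      Integrable f → Integrable g → IsWeakGradient f g →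
      (∀ᵐ x, uM f x ≠ ⊤) ∧ LocallyIntegrable (fun x => (uM f x).toReal) ∧
      ∃ G : EuclideanSpace ℝ (Fin d) → EuclideanSpace ℝ (Fin d), Integrable G ∧
        IsWeakGradient (fun x => (uM f x).toReal) G ∧ ∫ x, ‖G x‖ ≤ C * ∫ x, ‖g x‖) ∧
    (∀ (f : EuclideanSpace ℝ (Fin d) → ℝ) (V : ℝ), Integrable f → VarLe f V →
      (∀ᵐ x, uM f x ≠ ⊤) ∧ LocallyIntegrable (fun x => (uM f x).toReal) ∧
      VarLe (fun x => (uM f x).toReal) (C * V)) := by
  obtain ⟨C₁, hC₁, h₁⟩ := W11 d hd
  obtain ⟨C₂, hC₂, h₂⟩ := BVmain d hd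
  refine ⟨max C₁ C₂, le_max_of_le_left hC₁, ?_, ?_⟩
  · intro f g hf hg hfg
    obtain ⟨a, b, G, hG, hG', hG''⟩ := h₁ f g hf hg hfg
    refine ⟨a, b, G, hG, hG', hG''.trans ?_⟩
    exact mul_le_mul_of_nonneg_right (le_max_left _ _)
      (integral_nonneg fun x => norm_nonneg _)
  · intro f V hf hV
    have hV0 : 0 ≤ V := by
      have := hV (fun _ => 0) contDiff_const HasCompactSupport.zero (by simp)
      simpa using this
    obtain ⟨a, b, hab⟩ := h₂ f V hf hV
    refine ⟨a, b, fun φ h1 h2 h3 => (hab φ h1 h2 h3).trans ?_⟩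
    exact mul_le_mul_of_nonneg_right (le_max_right _ _) hV0

end Vale.Agent.Results.P137.UncenteredSobolevBV
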